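import Vale.Agent.P066.G.Inf

namespace Vale.Agent.Results.P066.A_full
open Vale.Agent.P066

theorem result (n : ℕ) (h : Fin n → Fin n) (hmono : Monotone h) (hle : ∀ i, i ≤ h i) :
    ∃ c : n.Partition → Polynomial ℤ,
      chromaticQSym h = ∑ l : n.Partition, MvPowerSeries.C (c l) * (l.parts.map elemSym).prod ∧
      (∀ c' : n.Partition → Polynomial ℤ, chromaticQSym h =
        ∑ l : n.Partition, MvPowerSeries.C (c' l) * (l.parts.map elemSym).prod → c' = c) ∧
      ∀ l k, 0 ≤ (c l).coeff k :=
  G.sw_inf h hmono hle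

end Vale.Agent.Results.P066.A_full
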